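import Vale.Agent.P258.H78.Defs

/-!
The mirror image of the condition `Separates`: the slopes `2` and `-2` exchanged.
-/

namespace Vale.Agent.P258

/-- The condition `Separates` with the slopes `2` and `-2` exchanged: if a homomorphism kills the
curve of slope `2` on `k`, and does not kill the longitude of `e` unless it kills its meridian, then
it kills the square of the meridian of `k`; and there is a homomorphism that kills the curve of
slope `-2`, does not kill the square of the meridian, and takes the meridian of `e` to the power of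
exponent `f` of the longitude of `e`. -/
def SeparatesMirror (G : Type) [Group G] (P : Diagram) (k e : Fin P.n) (f : ℤ) : Prop :=
  (∀ ρ : Fin P.n → G, IsHom P ρ → (lon P ρ e = 1 → ρ e = 1) →
    ρ k ^ 2 * lon P ρ k = 1 → ρ k ^ 2 = 1) ∧
  ∃ ρ : Fin P.n → G, IsHom P ρ ∧ lon P ρ k = ρ k ^ 2 ∧ ρ k ^ 2 ≠ 1 ∧ ρ e = lon P ρ e ^ f

/-- Row R7: the group `SL(2, 7)` (336 elements) and the second pattern. -/
def RowR7 : Prop :=
  (∀ f : ℤ, (f % 3 = 2 ∨ f % 7 = 1) → SeparatesMirror
    (Matrix.SpecialLinearGroup (Fin 2) (ZMod 7)) patternB patternBK patternBE f) ∧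
  ∀ g : Matrix.SpecialLinearGroup (Fin 2) (ZMod 7), g ^ 168 = 1

/-- Row R11: the group `SL(2, 11)` (1320 elements) and the second pattern. -/
def RowR11 : Prop :=
  (∀ f : ℤ, f % 11 = 5 → Separates
    (Matrix.SpecialLinearGroup (Fin 2) (ZMod 11)) patternB patternBK patternBE f) ∧
  ∀ g : Matrix.SpecialLinearGroup (Fin 2) (ZMod 11), g ^ 660 = 1

end Vale.Agent.P258
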