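import Vale.Agent.P258.R2.H394.Spec2
import Vale.Agent.P258.H78.General

set_option linter.all false

/-!
The general criterion for two integral slopes.
-/

namespace Vale.Agent.P258

/-- The slopes `p₀` and `q₀` are not cosmetic for the `f`-twisted satellites of every knot `J` with
every pattern congruent modulo `N` to the link `P`, nor are slopes congruent to them modulo `N`:
for every link `D` whose sublink formed by `k` and `e` is the link `P` and whose other components,
through the arcs in `C`, carry slopes congruent to `1 / 0` modulo `N`. -/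
def SeparatesClassSlopes (N : ℤ) (P : Diagram) (k' e' : Fin P.n) (f p₀ q₀ : ℤ) : Prop :=
  ∀ (D J : Diagram), J.IsKnot → ∀ (C : Set (Fin D.n)) (a b : Fin D.n → ℤ) (k e : Fin D.n)
    (j : Fin J.n) (s p q : ℤ), SameSystem D C k e P k' e' → TrivialMod N C a b → N ∣ s →
    N ∣ p - p₀ → N ∣ q - q₀ →
    IsEmpty (PresentedGroup (twistedRelators D J C a b k e j s f p) ≃*
      PresentedGroup (twistedRelators D J C a b k e j s f q))

theorem col_const_of_central {G : Type*} [Group G] {D : Diagram} {ρ : Fin D.n → G}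
    (h : D.IsCol ρ) {a b : Fin D.n} (hab : D.SameComponent a b)
    (ha : ρ a ∈ Subgroup.center G) : ρ b = ρ a := by
  obtain ⟨i, rfl⟩ := hab
  induction i with
  | zero => rfl
  | succ i ih =>
    rw [Function.iterate_succ_apply', h (D.next^[i] a), ih]
    have hc := Subgroup.mem_center_iff.1 ha
      (ρ (D.above (D.next^[i] a)) ^ (-(D.sgn (D.next^[i] a) : ℤ)))
    rw [hc, mul_assoc, ← zpow_add]
    simp

/-- The general criterion. -/
theorem separatesClassSlopes {G : Type} [Group G] [Finite G] {N : ℕ}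
    (hN : ∀ g : G, g ^ N = 1) (P : Diagram) (k' e' : Fin P.n) (f p₀ q₀ : ℤ)
    (hsep : SeparatesSlopes G P k' e' f p₀ q₀) : SeparatesClassSlopes N P k' e' f p₀ q₀ := by
  intro D J hJ C a b k e j s p q hS hCC hs hp hq
  obtain ⟨hneg, ρ₀, h₀, hk, hne, he⟩ := hsep
  unfold lon at hk he
  rw [Diagram.lift_longitude] at hk he
  have ha : ∀ c ∈ C, (N : ℤ) ∣ a c - 1 := fun c hc => (hCC c hc).1
  have hb : ∀ c ∈ C, (N : ℤ) ∣ b c := fun c hc => (hCC c hc).2
  -- the slope `q` forces `μ ^ (p₀ - q₀) = 1`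
  have key : ∀ σ : Fin D.n ⊕ Fin J.n → G,
      (∀ r ∈ twistedRelators D J C a b k e j s f q, FreeGroup.lift σ r = 1) →
      σ (Sum.inl k) ^ (p₀ - q₀) = 1 := by
    intro σ hσ
    rw [sat_twisted_iff] at hσ
    obtain ⟨g1, g2, gc, g3, g4, g5⟩ := hσ
    have hC : ∀ c ∈ C, (σ ∘ Sum.inl) c = 1 := by
      intro c hc
      have h := gc c hc
      rw [zpow_of_dvd hN _ (hb c hc), mul_one, zpow_congr hN _ (n := 1) (ha c hc), zpow_one] at h
      exact h
    obtain ⟨ρ', c1, c2, c3, c4, c5⟩ := hS.down (σ ∘ Sum.inl) g1 hC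
    have c2' : ρ' k' = σ (Sum.inl k) := c2
    have c4' : ρ' e' = σ (Sum.inl e) := c4
    rw [zpow_of_dvd hN _ hs, mul_one] at g3
    rw [zpow_congr hN _ hq] at g5
    have h := hneg ρ' (fun i => (P.lift_wirtinger _ i).2 (c1 i)) ?_ ?_
    · rw [c2'] at h; exact h
    · unfold lon
      rw [Diagram.lift_longitude]
      intro h1
      rw [c5, g3] at h1 ⊢
      have hall : σ ∘ Sum.inr = fun _ => σ (Sum.inr j) := funext fun b =>
        col_const_of_central g2 (hJ j b) h1
      rw [c4', g4, hall, Diagram.lonVal_const J hJ, mul_one]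
    · unfold lon
      rw [Diagram.lift_longitude, c3, c2']
      exact g5
  have pow : ∀ (x : G) (m : ℤ), x ^ (p₀ - q₀) = 1 → x ^ q₀ = x ^ p₀ := by
    intro x m h
    rw [zpow_sub, mul_inv_eq_one] at h
    exact h.symm
  obtain ⟨ρ, u1, u2, u3, u4, u5, u6⟩ := hS.up ρ₀ (fun i => (P.lift_wirtinger _ i).1 (h₀ i))
  refine not_iso_of_ssubset (G := G) _ _ ?_
    (Sum.elim ρ (fun _ => P.lonVal ρ₀ e')) ?_ ?_
  · intro σ hσ
    have hsq := key σ hσ
    rw [sat_twisted_iff] at hσ ⊢
    obtain ⟨g1, g2, gc, g3, g4, g5⟩ := hσ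
    refine ⟨g1, g2, gc, g3, g4, ?_⟩
    rw [zpow_congr hN _ hq, pow _ 0 hsq] at g5
    rw [zpow_congr hN _ hp]
    exact g5
  · rw [sat_twisted_iff]
    refine ⟨u1, Diagram.isCol_const J _, ?_, ?_, ?_, ?_⟩
    · intro c hc
      change ρ c ^ a c * D.lonVal ρ c ^ b c = 1
      rw [zpow_of_dvd hN _ (hb c hc), mul_one, u2 c hc, one_zpow]
    · change D.lonVal ρ e * ρ e ^ s = P.lonVal ρ₀ e'
      rw [zpow_of_dvd hN _ hs, mul_one, u6]
    · change ρ e = (P.lonVal ρ₀ e') ^ f * J.lonVal (fun _ => P.lonVal ρ₀ e') j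
      rw [Diagram.lonVal_const J hJ, mul_one, u5, he]
    · change ρ k ^ p * D.lonVal ρ k = 1
      rw [zpow_congr hN _ hp, u3, u4]
      exact hk
  · intro h
    have h1 := key _ h
    change ρ k ^ (p₀ - q₀) = 1 at h1
    rw [u3] at h1
    exact hne h1

/-- The satellites themselves. -/
theorem satellite_of_classSlopes {N : ℤ} {P : Diagram} {k e : Fin P.n} {f p q : ℤ}
    (h : SeparatesClassSlopes N P k e f p q) (J : Diagram) (hJ : J.IsKnot) (j : Fin J.n) :
    IsEmpty (PresentedGroup (satelliteRelators P J k e j f p) ≃*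
      PresentedGroup (satelliteRelators P J k e j f q)) := by
  have e1 : ∀ p : ℤ, twistedRelators P J ∅ 1 0 k e j 0 f p = satelliteRelators P J k e j f p := by
    intro p
    unfold twistedRelators satelliteRelators
    simp
  have h1 := h P J hJ ∅ 1 0 k e j 0 p q ⟨MulEquiv.refl _, ⟨rfl, rfl⟩, ⟨rfl, rfl⟩⟩
    (fun c hc => hc.elim) (dvd_zero _) (by simp) (by simp)
  rw [e1, e1] at h1
  exact h1

end Vale.Agent.P258
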