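import Vale.Agent.P258.R2.H394.Count
import Vale.Agent.P258.R2.H394.Slopes

set_option linter.all false

/-!
The number of homomorphisms to a finite group depends only on the class of the pattern modulo the
exponent of the group.
-/

namespace Vale.Agent.P258

/-- The homomorphism of the sublink group given by an assignment. -/
noncomputable def homOf {G : Type} [Group G] (D : Diagram) (C : Set (Fin D.n)) (ρ : Fin D.n → G)
    (h : D.IsCol ρ) (hC : ∀ c ∈ C, ρ c = 1) : LinkGroup D C →* G :=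
  PresentedGroup.toGroup (f := ρ) (rels := sublinkRelators D C) (by
    rintro r (⟨a, rfl⟩ | ⟨c, hc, rfl⟩)
    · exact (D.lift_wirtinger ρ a).2 (h a)
    · rw [FreeGroup.lift_apply_of]; exact hC c hc)

theorem homOf_elem {G : Type} [Group G] (D : Diagram) (C : Set (Fin D.n)) (ρ : Fin D.n → G)
    (h : D.IsCol ρ) (hC : ∀ c ∈ C, ρ c = 1) (w : FreeGroup (Fin D.n)) :
    homOf D C ρ h hC (elem D C w) = FreeGroup.lift ρ w := rfl

/-- The assignment given by a homomorphism of the sublink group. -/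
def colOf {G : Type} [Group G] (D : Diagram) (C : Set (Fin D.n)) (F : LinkGroup D C →* G) :
    Fin D.n → G := fun a => F (elem D C (FreeGroup.of a))

theorem lift_colOf {G : Type} [Group G] (D : Diagram) (C : Set (Fin D.n))
    (F : LinkGroup D C →* G) (w : FreeGroup (Fin D.n)) :
    FreeGroup.lift (colOf D C F) w = F (elem D C w) := by
  let F0 : PresentedGroup (sublinkRelators D C) →* G := F
  have : FreeGroup.lift (colOf D C F) =
      F0.comp (PresentedGroup.mk (sublinkRelators D C)) := by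
    ext a
    simp [colOf, elem, F0]
    rfl
  rw [this]
  rfl

theorem isCol_colOf {G : Type} [Group G] (D : Diagram) (C : Set (Fin D.n))
    (F : LinkGroup D C →* G) : D.IsCol (colOf D C F) := by
  intro a
  refine (D.lift_wirtinger (colOf D C F) a).1 ?_
  rw [lift_colOf]
  have : elem D C (D.wirtinger a) = 1 := PresentedGroup.one_of_mem (Or.inl ⟨a, rfl⟩)
  rw [this, map_one]

theorem colOf_mem {G : Type} [Group G] (D : Diagram) (C : Set (Fin D.n))
    (F : LinkGroup D C →* G) : ∀ c ∈ C, colOf D C F c = 1 := by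
  intro c hc
  have : elem D C (FreeGroup.of c) = 1 := PresentedGroup.one_of_mem (Or.inr ⟨c, hc, rfl⟩)
  change F _ = 1
  rw [this, map_one]

theorem colOf_homOf {G : Type} [Group G] (D : Diagram) (C : Set (Fin D.n)) (ρ : Fin D.n → G)
    (h : D.IsCol ρ) (hC : ∀ c ∈ C, ρ c = 1) : colOf D C (homOf D C ρ h hC) = ρ := by
  funext a
  change homOf D C ρ h hC (elem D C (FreeGroup.of a)) = ρ a
  rw [homOf_elem, FreeGroup.lift_apply_of]

theorem homOf_colOf {G : Type} [Group G] (D : Diagram) (C : Set (Fin D.n))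
    (F : LinkGroup D C →* G) (h : D.IsCol (colOf D C F)) (hC : ∀ c ∈ C, colOf D C F c = 1)
    (x : LinkGroup D C) : homOf D C (colOf D C F) h hC x = F x := by
  obtain ⟨w, rfl⟩ : ∃ w, elem D C w = x := PresentedGroup.mk_surjective _ x
  rw [homOf_elem, lift_colOf]

/-- The relations of the satellite. -/
theorem sat_sat_iff {G : Type*} [Group G] (P J : Diagram) (k e : Fin P.n) (j : Fin J.n) (f p : ℤ)
    (σ : Fin P.n ⊕ Fin J.n → G) :
    (∀ r ∈ satelliteRelators P J k e j f p, FreeGroup.lift σ r = 1) ↔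
      P.IsCol (σ ∘ Sum.inl) ∧ J.IsCol (σ ∘ Sum.inr) ∧
      P.lonVal (σ ∘ Sum.inl) e = σ (Sum.inr j) ∧
      σ (Sum.inl e) = σ (Sum.inr j) ^ f * J.lonVal (σ ∘ Sum.inr) j ∧
      σ (Sum.inl k) ^ p * P.lonVal (σ ∘ Sum.inl) k = 1 := by
  have e1 : twistedRelators P J ∅ 1 0 k e j 0 f p = satelliteRelators P J k e j f p := by
    unfold twistedRelators satelliteRelators
    simp
  rw [← e1, sat_twisted_iff]
  constructor
  · rintro ⟨g1, g2, _, g3, g4, g5⟩
    rw [zpow_zero, mul_one] at g3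
    exact ⟨g1, g2, g3, g4, g5⟩
  · rintro ⟨g1, g2, g3, g4, g5⟩
    refine ⟨g1, g2, fun c hc => hc.elim, ?_, g4, g5⟩
    rw [zpow_zero, mul_one]
    exact g3

/-- The group of a surgery on a satellite with a pattern congruent to `P` modulo `N` has as many
homomorphisms to `G` as with the pattern `P`. -/
theorem card_hom_class {G : Type} [Group G] {N : ℕ} (hN : ∀ g : G, g ^ N = 1)
    (D J P : Diagram) (C : Set (Fin D.n)) (a b : Fin D.n → ℤ) (k e : Fin D.n) (j : Fin J.n)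
    (k' e' : Fin P.n) (s f p p₀ : ℤ) (hS : SameSystem D C k e P k' e')
    (ha : ∀ c ∈ C, (N : ℤ) ∣ a c - 1) (hb : ∀ c ∈ C, (N : ℤ) ∣ b c) (hs : (N : ℤ) ∣ s)
    (hp : (N : ℤ) ∣ p - p₀) :
    Nat.card (PresentedGroup (twistedRelators D J C a b k e j s f p) →* G) =
      Nat.card (PresentedGroup (satelliteRelators P J k' e' j f p₀) →* G) := by
  rw [card_hom_eq, card_hom_eq]
  obtain ⟨θ, ⟨t1, t2⟩, t3, t4⟩ := hS
  have hcol : ∀ σ : Fin D.n ⊕ Fin J.n → G,
      (∀ r ∈ twistedRelators D J C a b k e j s f p, FreeGroup.lift σ r = 1) →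
      D.IsCol (σ ∘ Sum.inl) ∧ ∀ c ∈ C, (σ ∘ Sum.inl) c = 1 := by
    intro σ hσ
    rw [sat_twisted_iff] at hσ
    obtain ⟨g1, g2, gc, g3, g4, g5⟩ := hσ
    refine ⟨g1, ?_⟩
    intro c hc
    have h := gc c hc
    rw [zpow_of_dvd hN _ (hb c hc), mul_one, zpow_congr hN _ (n := 1) (ha c hc), zpow_one] at h
    exact h
  have hcol' : ∀ σ : Fin P.n ⊕ Fin J.n → G,
      (∀ r ∈ satelliteRelators P J k' e' j f p₀, FreeGroup.lift σ r = 1) →
      P.IsCol (σ ∘ Sum.inl) ∧ ∀ c ∈ (∅ : Set (Fin P.n)), (σ ∘ Sum.inl) c = 1 := by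
    intro σ hσ
    rw [sat_sat_iff] at hσ
    exact ⟨hσ.1, fun c hc => hc.elim⟩
  -- the two maps
  let fw : ∀ ρ : Fin D.n → G, D.IsCol ρ → (∀ c ∈ C, ρ c = 1) → Fin P.n → G := fun ρ h hC =>
    colOf P ∅ ((homOf D C ρ h hC).comp θ.symm.toMonoidHom)
  let bw : ∀ ρ : Fin P.n → G, P.IsCol ρ → (∀ c ∈ (∅ : Set (Fin P.n)), ρ c = 1) → Fin D.n → G :=
    fun ρ h hC => colOf D C ((homOf P ∅ ρ h hC).comp θ.toMonoidHom)
  have fw_val : ∀ (ρ : Fin D.n → G) (h : D.IsCol ρ) (hC : ∀ c ∈ C, ρ c = 1)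
      (w : FreeGroup (Fin D.n)) (w' : FreeGroup (Fin P.n)),
      θ (elem D C w) = elem P ∅ w' → FreeGroup.lift (fw ρ h hC) w' = FreeGroup.lift ρ w := by
    intro ρ h hC w w' hw
    change FreeGroup.lift (colOf P ∅ _) w' = _
    rw [lift_colOf, ← hw]
    change homOf D C ρ h hC (θ.symm (θ (elem D C w))) = _
    rw [MulEquiv.symm_apply_apply, homOf_elem]
  have bw_val : ∀ (ρ : Fin P.n → G) (h : P.IsCol ρ) (hC : ∀ c ∈ (∅ : Set (Fin P.n)), ρ c = 1)
      (w : FreeGroup (Fin D.n)) (w' : FreeGroup (Fin P.n)),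
      θ (elem D C w) = elem P ∅ w' → FreeGroup.lift (bw ρ h hC) w = FreeGroup.lift ρ w' := by
    intro ρ h hC w w' hw
    change FreeGroup.lift (colOf D C _) w = _
    rw [lift_colOf]
    change homOf P ∅ ρ h hC (θ (elem D C w)) = _
    rw [hw, homOf_elem]
  have fwbw : ∀ (ρ : Fin P.n → G) (h : P.IsCol ρ) (hC : ∀ c ∈ (∅ : Set (Fin P.n)), ρ c = 1)
      (h2 : D.IsCol (bw ρ h hC)) (hC2 : ∀ c ∈ C, bw ρ h hC c = 1),
      fw (bw ρ h hC) h2 hC2 = ρ := by
    intro ρ h hC h2 hC2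
    funext x
    change homOf D C (colOf D C ((homOf P ∅ ρ h hC).comp θ.toMonoidHom)) h2 hC2
      (θ.symm (elem P ∅ (FreeGroup.of x))) = ρ x
    rw [homOf_colOf]
    change homOf P ∅ ρ h hC (θ (θ.symm (elem P ∅ (FreeGroup.of x)))) = ρ x
    rw [MulEquiv.apply_symm_apply, homOf_elem, FreeGroup.lift_apply_of]
  have bwfw : ∀ (ρ : Fin D.n → G) (h : D.IsCol ρ) (hC : ∀ c ∈ C, ρ c = 1)
      (h2 : P.IsCol (fw ρ h hC)) (hC2 : ∀ c ∈ (∅ : Set (Fin P.n)), fw ρ h hC c = 1),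
      bw (fw ρ h hC) h2 hC2 = ρ := by
    intro ρ h hC h2 hC2
    funext x
    change homOf P ∅ (colOf P ∅ ((homOf D C ρ h hC).comp θ.symm.toMonoidHom)) h2 hC2
      (θ (elem D C (FreeGroup.of x))) = ρ x
    rw [homOf_colOf]
    change homOf D C ρ h hC (θ.symm (θ (elem D C (FreeGroup.of x)))) = ρ x
    rw [MulEquiv.symm_apply_apply, homOf_elem, FreeGroup.lift_apply_of]
  have fwsat : ∀ (σ : Fin D.n ⊕ Fin J.n → G)
      (hσ : ∀ r ∈ twistedRelators D J C a b k e j s f p, FreeGroup.lift σ r = 1),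
      ∀ r ∈ satelliteRelators P J k' e' j f p₀,
        FreeGroup.lift (Sum.elim (fw (σ ∘ Sum.inl) (hcol σ hσ).1 (hcol σ hσ).2)
          (σ ∘ Sum.inr)) r = 1 := by
    intro σ hσ
    have hc := hcol σ hσ
    have v1 := fw_val (σ ∘ Sum.inl) hc.1 hc.2 _ _ t1
    have v2 := fw_val (σ ∘ Sum.inl) hc.1 hc.2 _ _ t2
    have v3 := fw_val (σ ∘ Sum.inl) hc.1 hc.2 _ _ t3
    have v4 := fw_val (σ ∘ Sum.inl) hc.1 hc.2 _ _ t4
    rw [FreeGroup.lift_apply_of, FreeGroup.lift_apply_of] at v1 v3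
    rw [Diagram.lift_longitude, Diagram.lift_longitude] at v2 v4
    rw [sat_twisted_iff] at hσ
    obtain ⟨g1, g2, gc, g3, g4, g5⟩ := hσ
    rw [zpow_of_dvd hN _ hs, mul_one] at g3
    rw [zpow_congr hN _ hp] at g5
    rw [sat_sat_iff]
    refine ⟨isCol_colOf P ∅ _, g2, ?_, ?_, ?_⟩
    · exact v4.trans g3
    · exact v3.trans g4
    · change fw (σ ∘ Sum.inl) hc.1 hc.2 k' ^ p₀ * P.lonVal (fw (σ ∘ Sum.inl) hc.1 hc.2) k' = 1
      rw [v1, v2]
      exact g5
  have bwsat : ∀ (σ : Fin P.n ⊕ Fin J.n → G)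
      (hσ : ∀ r ∈ satelliteRelators P J k' e' j f p₀, FreeGroup.lift σ r = 1),
      ∀ r ∈ twistedRelators D J C a b k e j s f p,
        FreeGroup.lift (Sum.elim (bw (σ ∘ Sum.inl) (hcol' σ hσ).1 (hcol' σ hσ).2)
          (σ ∘ Sum.inr)) r = 1 := by
    intro σ hσ
    have hc := hcol' σ hσ
    have v1 := bw_val (σ ∘ Sum.inl) hc.1 hc.2 _ _ t1
    have v2 := bw_val (σ ∘ Sum.inl) hc.1 hc.2 _ _ t2
    have v3 := bw_val (σ ∘ Sum.inl) hc.1 hc.2 _ _ t3
    have v4 := bw_val (σ ∘ Sum.inl) hc.1 hc.2 _ _ t4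
    rw [FreeGroup.lift_apply_of, FreeGroup.lift_apply_of] at v1 v3
    rw [Diagram.lift_longitude, Diagram.lift_longitude] at v2 v4
    rw [sat_sat_iff] at hσ
    obtain ⟨g1, g2, g3, g4, g5⟩ := hσ
    rw [sat_twisted_iff]
    refine ⟨isCol_colOf D C _, g2, ?_, ?_, ?_, ?_⟩
    · intro c hc'
      have hone : bw (σ ∘ Sum.inl) hc.1 hc.2 c = 1 := colOf_mem D C _ c hc'
      change bw (σ ∘ Sum.inl) hc.1 hc.2 c ^ a c *
        D.lonVal (bw (σ ∘ Sum.inl) hc.1 hc.2) c ^ b c = 1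
      rw [zpow_of_dvd hN _ (hb c hc'), mul_one, hone, one_zpow]
    · change D.lonVal (bw (σ ∘ Sum.inl) hc.1 hc.2) e *
        bw (σ ∘ Sum.inl) hc.1 hc.2 e ^ s = σ (Sum.inr j)
      rw [zpow_of_dvd hN _ hs, mul_one]
      exact v4.trans g3
    · exact v3.trans g4
    · change bw (σ ∘ Sum.inl) hc.1 hc.2 k ^ p * D.lonVal (bw (σ ∘ Sum.inl) hc.1 hc.2) k = 1
      rw [zpow_congr hN _ hp, v1, v2]
      exact g5
  refine Nat.card_congr
    { toFun := fun σ => ⟨_, fwsat σ.1 σ.2⟩,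
      invFun := fun σ => ⟨_, bwsat σ.1 σ.2⟩,
      left_inv := ?_, right_inv := ?_ }
  · intro σ
    apply Subtype.ext
    funext x
    rcases x with x | x
    · exact congrFun (bwfw (σ.1 ∘ Sum.inl) _ _ _ _) x
    · rfl
  · intro σ
    apply Subtype.ext
    funext x
    rcases x with x | x
    · exact congrFun (fwbw (σ.1 ∘ Sum.inl) _ _ _ _) x
    · rfl

/-- Different numbers of homomorphisms for the satellites of all knots `J` with the pattern `P`
persist for all patterns congruent to `P` modulo `N`. -/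
theorem separatesClassSlopes_of_card {G : Type} [Group G] {N : ℕ} (hN : ∀ g : G, g ^ N = 1)
    (P : Diagram) (k' e' : Fin P.n) (f p₀ q₀ : ℤ)
    (h : ∀ J : Diagram, J.IsKnot → ∀ j : Fin J.n,
      Nat.card (PresentedGroup (satelliteRelators P J k' e' j f p₀) →* G) ≠
        Nat.card (PresentedGroup (satelliteRelators P J k' e' j f q₀) →* G)) :
    SeparatesClassSlopes N P k' e' f p₀ q₀ := by
  intro D J hJ C a b k e j s p q hS hC hs hp hq
  constructor
  intro φ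
  apply h J hJ j
  rw [← card_hom_class hN D J P C a b k e j k' e' s f p p₀ hS (fun c hc => (hC c hc).1)
      (fun c hc => (hC c hc).2) hs hp,
    ← card_hom_class hN D J P C a b k e j k' e' s f q q₀ hS (fun c hc => (hC c hc).1)
      (fun c hc => (hC c hc).2) hs hq]
  exact Nat.card_congr (MulEquiv.monoidHomCongrLeftEquiv φ)

end Vale.Agent.P258
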