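import Vale.Agent.P258.H78.Main

set_option linter.all false

/-!
Surgeries on the satellites with an arbitrary companion whose pattern is congruent modulo `N` to a
split link `P ∪ O`.
-/

namespace Vale.Agent.P258

/-- `E` (the component of the arc `e`) is a trivial split component of the link that is left when
the components through the arcs in `C` are erased: its longitude is trivial in the link group. -/
def SplitOff (D : Diagram) (C : Set (Fin D.n)) (e : Fin D.n) : Prop :=
  elem D C (D.longitude e) = 1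

/-- The slopes `p₀` and `p₁` are not cosmetic for the `f`-twisted satellites of every knot `J` with
every pattern congruent modulo `N` to the split link formed by the knot `P` and a trivial circle,
nor are slopes congruent to them modulo `N`. -/
def SeparatesSplitClass (N : ℤ) (P : Diagram) (k' : Fin P.n) (p₀ p₁ : ℤ) : Prop :=
  ∀ (D J : Diagram), J.IsKnot → ∀ (C : Set (Fin D.n)) (a b : Fin D.n → ℤ) (k e : Fin D.n)
    (j : Fin J.n) (s f p q : ℤ), SplitOff D C e → SameSystem D (insert e C) k k P k' k' →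
    TrivialMod N C a b → N ∣ s → N ∣ p - p₀ → N ∣ q - p₁ →
    IsEmpty (PresentedGroup (twistedRelators D J C a b k e j s f p) ≃*
      PresentedGroup (twistedRelators D J C a b k e j s f q))

theorem card_hom_eq {α : Type} {G : Type} [Group G] (T : Set (FreeGroup α)) :
    Nat.card (PresentedGroup T →* G) =
      Nat.card {σ : α → G // ∀ r ∈ T, FreeGroup.lift σ r = 1} := by
  refine Nat.card_congr
    { toFun := fun f => ⟨fun a => f (PresentedGroup.of a), ?_⟩,
      invFun := fun σ => PresentedGroup.toGroup (f := σ.1) σ.2,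
      left_inv := ?_, right_inv := ?_ }
  · intro r hr
    have h3 : FreeGroup.lift (fun a => f (PresentedGroup.of a)) =
        f.comp (PresentedGroup.mk T) := by
      ext a
      simp [PresentedGroup.of]
    rw [h3, MonoidHom.comp_apply]
    have : PresentedGroup.mk T r = 1 := PresentedGroup.one_of_mem hr
    rw [this, map_one]
  · intro f
    ext a
    simp
  · intro σ
    apply Subtype.ext
    funext a
    simp

/-- The relations of a surgery with slopes `1 / 0` on the components in `C`. -/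
theorem sat_surgery_iff {G : Type*} [Group G] (D : Diagram) (C : Set (Fin D.n)) (k : Fin D.n)
    (p : ℤ) (ρ : Fin D.n → G) :
    (∀ r ∈ surgeryRelators D C 1 0 k p 1, FreeGroup.lift ρ r = 1) ↔
      D.IsCol ρ ∧ (∀ c ∈ C, ρ c = 1) ∧ ρ k ^ p * D.lonVal ρ k = 1 := by
  have h6 : ∀ c : Fin D.n, FreeGroup.lift ρ (FreeGroup.of c ^ (1 : Fin D.n → ℤ) c *
      D.longitude c ^ (0 : Fin D.n → ℤ) c) = ρ c := by
    intro c
    simp
  have h5 : FreeGroup.lift ρ (FreeGroup.of k ^ p * D.longitude k ^ (1 : ℤ)) =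
      ρ k ^ p * D.lonVal ρ k := by
    rw [map_mul, map_zpow, map_zpow, Diagram.lift_longitude, FreeGroup.lift_apply_of, zpow_one]
  constructor
  · intro h
    refine ⟨fun i => ?_, fun c hc => ?_, ?_⟩
    · exact (D.lift_wirtinger _ i).1 (h _ (Or.inl (Or.inl ⟨i, rfl⟩)))
    · rw [← h6 c]; exact h _ (Or.inl (Or.inr ⟨c, hc, rfl⟩))
    · rw [← h5]; exact h _ (Or.inr rfl)
  · rintro ⟨g1, g2, g3⟩ r hr
    rcases hr with (⟨i, rfl⟩ | ⟨c, hc, rfl⟩) | rfl
    · exact (D.lift_wirtinger _ i).2 (g1 i)
    · exact (h6 c).trans (g2 c hc)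
    · exact h5.trans g3

/-- The homomorphisms to `G` of the group of a surgery on the satellite kill the companion. -/
theorem card_hom_split {G : Type} [Group G] {N : ℕ} (hN : ∀ g : G, g ^ N = 1)
    (D J : Diagram) (hJ : J.IsKnot) (C : Set (Fin D.n)) (a b : Fin D.n → ℤ) (k e : Fin D.n)
    (j : Fin J.n) (s f p p₀ : ℤ) (hE : SplitOff D C e)
    (ha : ∀ c ∈ C, (N : ℤ) ∣ a c - 1) (hb : ∀ c ∈ C, (N : ℤ) ∣ b c) (hs : (N : ℤ) ∣ s)
    (hp : (N : ℤ) ∣ p - p₀) :
    Nat.card (PresentedGroup (twistedRelators D J C a b k e j s f p) →* G) =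
      Nat.card (PresentedGroup (surgeryRelators D (insert e C) 1 0 k p₀ 1) →* G) := by
  rw [card_hom_eq, card_hom_eq]
  have key : ∀ σ : Fin D.n ⊕ Fin J.n → G,
      (∀ r ∈ twistedRelators D J C a b k e j s f p, FreeGroup.lift σ r = 1) →
      (∀ r ∈ surgeryRelators D (insert e C) 1 0 k p₀ 1,
        FreeGroup.lift (σ ∘ Sum.inl) r = 1) ∧ ∀ b, σ (Sum.inr b) = 1 := by
    intro σ hσ
    rw [sat_twisted_iff] at hσ
    obtain ⟨g1, g2, gc, g3, g4, g5⟩ := hσ
    have hC : ∀ c ∈ C, (σ ∘ Sum.inl) c = 1 := by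
      intro c hc
      have h := gc c hc
      rw [zpow_of_dvd hN _ (hb c hc), mul_one, zpow_congr hN _ (n := 1) (ha c hc), zpow_one] at h
      exact h
    obtain ⟨F, hF⟩ := exists_hom_of_sublink D C (σ ∘ Sum.inl) g1 hC
    have hl : D.lonVal (σ ∘ Sum.inl) e = 1 := by
      rw [← Diagram.lift_longitude, ← hF]
      have : PresentedGroup.mk (sublinkRelators D C) (D.longitude e) = 1 := hE
      rw [this, map_one]
    rw [zpow_of_dvd hN _ hs, mul_one, hl] at g3
    have hall : ∀ b, (σ ∘ Sum.inr) b = 1 := fun b =>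
      Diagram.IsCol.eq_one J g2 (hJ j b) g3.symm
    rw [← g3, one_zpow, one_mul, Diagram.lonVal_of_one J hall] at g4
    refine ⟨?_, hall⟩
    rw [sat_surgery_iff]
    refine ⟨g1, ?_, ?_⟩
    · rintro c (rfl | hc)
      · exact g4
      · exact hC c hc
    · rw [← zpow_congr hN _ hp]; exact g5
  have back : ∀ ρ : Fin D.n → G,
      (∀ r ∈ surgeryRelators D (insert e C) 1 0 k p₀ 1, FreeGroup.lift ρ r = 1) →
      ∀ r ∈ twistedRelators D J C a b k e j s f p,
        FreeGroup.lift (Sum.elim ρ (fun _ => (1 : G))) r = 1 := by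
    intro ρ hρ
    rw [sat_surgery_iff] at hρ
    obtain ⟨g1, g2, g3⟩ := hρ
    have hC : ∀ c ∈ C, ρ c = 1 := fun c hc => g2 c (Or.inr hc)
    have he : ρ e = 1 := g2 e (Or.inl rfl)
    obtain ⟨F, hF⟩ := exists_hom_of_sublink D C ρ g1 hC
    have hl : D.lonVal ρ e = 1 := by
      rw [← Diagram.lift_longitude, ← hF]
      have : PresentedGroup.mk (sublinkRelators D C) (D.longitude e) = 1 := hE
      rw [this, map_one]
    rw [sat_twisted_iff]
    refine ⟨g1, Diagram.isCol_const J _, ?_, ?_, ?_, ?_⟩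
    · intro c hc
      change ρ c ^ a c * D.lonVal ρ c ^ b c = 1
      rw [zpow_of_dvd hN _ (hb c hc), mul_one, hC c hc, one_zpow]
    · change D.lonVal ρ e * ρ e ^ s = 1
      rw [zpow_of_dvd hN _ hs, mul_one, hl]
    · change ρ e = (1 : G) ^ f * J.lonVal (fun _ => (1 : G)) j
      rw [Diagram.lonVal_const J hJ, mul_one, one_zpow, he]
    · change ρ k ^ p * D.lonVal ρ k = 1
      rw [zpow_congr hN _ hp]; exact g3
  refine Nat.card_congr
    { toFun := fun σ => ⟨σ.1 ∘ Sum.inl, (key σ.1 σ.2).1⟩,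
      invFun := fun ρ => ⟨Sum.elim ρ.1 (fun _ => 1), back ρ.1 ρ.2⟩,
      left_inv := ?_, right_inv := ?_ }
  · intro σ
    apply Subtype.ext
    funext x
    rcases x with x | x
    · rfl
    · exact ((key σ.1 σ.2).2 x).symm
  · intro ρ
    apply Subtype.ext
    funext x
    rfl

/-- Different numbers of homomorphisms to a finite group of exponent dividing `N`, for two slopes
on a knot `P`, persist for all satellites whose pattern is congruent to `P ∪ O` modulo `N`. -/
theorem separatesSplitClass_of_homCount {G : Type} [Group G] {N : ℕ}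
    (hN : ∀ g : G, g ^ N = 1) (P : Diagram) (k' : Fin P.n) (p₀ p₁ : ℤ)
    (hne : homCount G P k' p₀ 1 ≠ homCount G P k' p₁ 1) :
    SeparatesSplitClass N P k' p₀ p₁ := by
  intro D J hJ C a b k e j s f p q hE hS hC hs hp hq
  constructor
  intro φ
  apply hne
  have h : ∀ p p₀ : ℤ, (N : ℤ) ∣ p - p₀ →
      Nat.card (PresentedGroup (twistedRelators D J C a b k e j s f p) →* G) =
        homCount G P k' p₀ 1 := by
    intro p p₀ hp
    rw [card_hom_split hN D J hJ C a b k e j s f p p₀ hE (fun c hc => (hC c hc).1)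
      (fun c hc => (hC c hc).2) hs hp]
    exact card_hom_congr hN D (insert e C) 1 0 k P k' hS (fun c _ => by simp)
      (fun c _ => by simp) p₀ 1 p₀ 1 (by simp) (by simp)
  rw [← h p p₀ hp, ← h q p₁ hq]
  exact Nat.card_congr (MulEquiv.monoidHomCongrLeftEquiv φ)

end Vale.Agent.P258
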