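import Vale.Agent.P258.H78.Main

set_option linter.all false

/-!
The second pattern and the group `SL(2, 8)`: a colouring in which the meridian of `E` is the square
of its longitude, of order nine.
-/

namespace Vale.Agent.P258.Second

/-- A colouring of the second pattern with `μ ^ 2 * λ = 1`, `μ ^ 2 ≠ 1`. -/
def col9 (i : Fin 33) : G :=
  toG ([1608, 3780, 3429, 1225, 1225, 1225, 1225, 1225, 1225, 1225, 1225, 1225, 1225, 2375, 3429,
    3780, 1608, 3612, 714, 602, 3628, 2862, 2079, 75, 2862, 3628, 602, 714, 714, 714, 714, 2779,
    807].getD i.val 0)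

theorem col9_rel : PatRel col9 where
  f0 := code_inj (by rw [code_cj]; decide +kernel)
  f1 := code_inj (by rw [code_cj]; decide +kernel)
  f2 := code_inj (by rw [code_cj]; decide +kernel)
  f3 := code_inj (by rw [code_cj]; decide +kernel)
  f4 := code_inj (by rw [code_cj]; decide +kernel)
  f5 := code_inj (by rw [code_cj]; decide +kernel)
  f6 := code_inj (by rw [code_cj]; decide +kernel)
  f7 := code_inj (by rw [code_cj]; decide +kernel)
  f8 := code_inj (by rw [code_cj]; decide +kernel)
  f9 := code_inj (by rw [code_cj]; decide +kernel)
  f10 := code_inj (by rw [code_cj]; decide +kernel)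
  f11 := code_inj (by rw [code_cj]; decide +kernel)
  f12 := code_inj (by rw [code_cj]; decide +kernel)
  f13 := code_inj (by rw [code_cj]; decide +kernel)
  f14 := code_inj (by rw [code_cj]; decide +kernel)
  f15 := code_inj (by rw [code_cj]; decide +kernel)
  f16 := code_inj (by rw [code_cj]; decide +kernel)
  f17 := code_inj (by rw [code_cj]; decide +kernel)
  f18 := code_inj (by rw [code_cj]; decide +kernel)
  f19 := code_inj (by rw [code_cj]; decide +kernel)
  f20 := code_inj (by rw [code_cj]; decide +kernel)
  f21 := code_inj (by rw [code_cj]; decide +kernel)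
  f22 := code_inj (by rw [code_cj]; decide +kernel)
  f23 := code_inj (by rw [code_cj]; decide +kernel)
  f24 := code_inj (by rw [code_cj]; decide +kernel)
  f25 := code_inj (by rw [code_cj]; decide +kernel)
  f26 := code_inj (by rw [code_cj]; decide +kernel)
  f27 := code_inj (by rw [code_cj]; decide +kernel)
  f28 := code_inj (by rw [code_cj]; decide +kernel)
  f29 := code_inj (by rw [code_cj]; decide +kernel)
  f30 := code_inj (by rw [code_cj]; decide +kernel)
  f31 := code_inj (by rw [code_cj]; decide +kernel)
  f32 := code_inj (by rw [code_cj]; decide +kernel)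

theorem col9_isCol : patternB.IsCol col9 := isCol_of_patRel _ col9_rel

theorem col9_K : col9 0 * col9 0 * patternB.lonVal col9 patternBK = 1 := by
  rw [lonVal_K]
  apply code_inj
  unfold lamB
  rw [code_mul, code_mul (_ : G) (col9 0 ^ (-(13 : ℤ))), code_inv13]
  simp only [code_mul, code_inv, code_one]
  decide +kernel

theorem col9_sq : col9 0 * col9 0 ≠ 1 := by
  intro h
  have := congrArg code h
  rw [code_mul, code_one] at this
  revert this
  decide +kernel

theorem col9_E : (patternB.lonVal col9 patternBE) ^ (9 : ℕ) = 1 := by
  rw [lonVal_E]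
  apply code_inj
  simp only [pow_succ, pow_zero, one_mul, code_mul, code_inv, code_one]
  decide +kernel

theorem col9_31 : col9 31 = patternB.lonVal col9 patternBE * patternB.lonVal col9 patternBE := by
  rw [lonVal_E]
  apply code_inj
  simp only [code_mul, code_inv]
  decide +kernel

end Vale.Agent.P258.Second
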