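import Vale.Agent.P258.R2.H394.Unit
import Vale.Agent.P258.R2.H747.ClassCount
import Vale.Agent.P258.R2.H893.S5

set_option linter.all false

/-!
The classes of the first pattern.
-/

namespace Vale.Agent.P258

/-- The first pattern, `f` odd or `f ≡ 2` modulo `5`, and symmetric groups. -/
theorem class_odd (f : ℤ) (hf : f % 2 = 1 ∨ f % 5 = 2) :
    SeparatesClassSlopes 60 pattern patternK patternE f (-2) 2 := by
  refine separatesClassSlopes_of_graded (G := Equiv.Perm (Fin 5)) Equiv.Perm.sign (N := 60)
    R2.H893.Five.rowC pattern patternK patternE f (-2) 2 (graded_of_units _ f (-2) 2 ?_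
      (R2.H893.Five.rowB f hf))
  intro ρ h1 h2 h3 _ h5
  have hl : Equiv.Perm.sign (lon pattern ρ patternE) = 1 := by
    have h6 : ∀ a : Fin 21, a.val < 19 → Equiv.Perm.sign (ρ a) = Equiv.Perm.sign (ρ patternK) := by
      intro a ha
      have hc : pattern.IsCol ρ := fun i => (pattern.lift_wirtinger _ i).1 (h1 i)
      exact col_const_of_central (isCol_map Equiv.Perm.sign pattern ρ hc) ((comp_K a).2 ha)
        (Subgroup.mem_center_iff.2 fun y => mul_comm _ _)
    unfold lon
    rw [Diagram.lift_longitude, map_lonVal]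
    refine (Second.H747A.lonValA_E (fun a => Equiv.Perm.sign (ρ a))).trans ?_
    have e6 := h6 6 (by decide)
    have e10 := h6 10 (by decide)
    exact (congrArg₂ (fun x y : ℤˣ => x⁻¹ * y) e6 e10).trans (inv_mul_cancel _)
  rw [hl, one_zpow] at h3
  exact R2.H893.Five.rowA ρ h1 h2 h3 h5

/-- The form with the slopes `2` and `-2` in this order. -/
theorem separatesClassSlopes_symm {N : ℤ} {P : Diagram} {k e : Fin P.n} {f p q : ℤ}
    (h : SeparatesClassSlopes N P k e f p q) : SeparatesClassSlopes N P k e f q p := by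
  intro D J hJ C a b k e j s p q hS hCC hs hp hq
  constructor
  intro φ
  exact (h D J hJ C a b k e j s q p hS hCC hs hq hp).false φ.symm

/-- Multiples of the modulus. -/
theorem separatesClassSlopes_mono {N M : ℤ} (hNM : N ∣ M) {P : Diagram} {k e : Fin P.n}
    {f p q : ℤ} (h : SeparatesClassSlopes N P k e f p q) : SeparatesClassSlopes M P k e f p q := by
  intro D J hJ C a b k e j s p q hS hCC hs hp hq
  exact h D J hJ C a b k e j s p q hS
    (fun c hc => ⟨hNM.trans (hCC c hc).1, hNM.trans (hCC c hc).2⟩)
    (hNM.trans hs) (hNM.trans hp) (hNM.trans hq)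

theorem separatesClassSlopes_of_class {N : ℤ} {P : Diagram} {k e : Fin P.n} {f : ℤ}
    (h : SeparatesClass N P k e f) : SeparatesClassSlopes N P k e f 2 (-2) := by
  intro D J hJ C a b k e j s p q hS hCC hs hp hq
  exact h D J hJ C a b k e j s p q hS hCC hs hp (by simpa using hq)

end Vale.Agent.P258
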