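import Vale.Agent.P258.R2.H394.Final
import Vale.Agent.P258.R2.H893.D5

set_option linter.all false

/-!
The class of the first pattern with `f ≡ 4` modulo `5`.
-/

namespace Vale.Agent.P258

/-- The first pattern, `f ≡ 4` modulo `5`. -/
theorem class_four_five (f : ℤ) (hf : f % 5 = 4) :
    SeparatesClassSlopes 120 pattern patternK patternE f (-2) 2 :=
  separatesClassSlopes_of_graded (G := R2.H893.D5.TG) R2.H893.D5.eps (N := 120)
    R2.H893.D5.rowC pattern patternK patternE f (-2) 2 (graded_of_units _ f (-2) 2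
      (fun ρ h1 h2 _ _ h5 => R2.H893.D5.rowA ρ h1 h2 h5) (R2.H893.D5.rowB f hf))

end Vale.Agent.P258
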