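import Vale.Agent.P258.R2.H394.Final2
import Vale.Agent.P258.R2.H747.G7Class
import Vale.Agent.P258.R2.H550D9.D9

set_option linter.all false

/-!
More classes of the first pattern.
-/

namespace Vale.Agent.P258

/-- The first pattern, `f ≡ 4` modulo `7`. -/
theorem class_four_seven (f : ℤ) (hf : f % 7 = 4) :
    SeparatesClassSlopes 168 pattern patternK patternE f 2 (-2) :=
  R2.H747.G7.class_four f (Or.inr hf)

/-- The first pattern, `f ≡ 1` modulo `3`. -/
theorem class_one_three (f : ℤ) (hf : f % 3 = 1) :
    SeparatesClassSlopes 240 pattern patternK patternE f 2 (-2) :=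
  H550D9.class_D9 f hf

/-- The first pattern, `f ≡ 2` modulo `3`. -/
theorem class_two_three (f : ℤ) (hf : f % 3 = 2) : SeparatesClass 30 pattern patternK patternE f :=
  fun D J hJ C a b k e j s p q hS hC hs hp hq =>
    first D J hJ C a b k e j s f p q hS (fun c hc => (hC c hc).1) (fun c hc => (hC c hc).2)
      hs hf hp hq

end Vale.Agent.P258
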