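import Vale.Agent.P258.R2.H394.Spec2

/-!
The separation condition for the homomorphisms with a given image in an abelian quotient.
-/

namespace Vale.Agent.P258

/-- The condition on the homomorphisms `ρ` of the group of the link `P` to `G` which separates the
slopes `p` and `q` for the `f`-twisted satellites. Here `eps` is a homomorphism of `G` to an abelian
group `A`, and only those `ρ` count for which `A` is generated by the image of the meridian of `k`.
For `A` trivial these are all `ρ`, and the first clause is empty; it holds for links of two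
components. -/
def SeparatesGraded (G A : Type) [Group G] [CommGroup A] (eps : G →* A) (P : Diagram)
    (k e : Fin P.n) (f p q : ℤ) : Prop :=
  (∀ χ : Fin P.n → A, IsHom P χ → χ e = lon P χ e ^ f → ∀ a, χ a ∈ Subgroup.zpowers (χ k)) ∧
  (∀ ρ : Fin P.n → G, IsHom P ρ → Subgroup.zpowers (eps (ρ k)) = ⊤ →
    eps (ρ e) = eps (lon P ρ e) ^ f →
    (lon P ρ e ∈ Subgroup.center G → ρ e = lon P ρ e ^ f) →
    ρ k ^ q * lon P ρ k = 1 → ρ k ^ (p - q) = 1) ∧
  ∃ ρ : Fin P.n → G, IsHom P ρ ∧ Subgroup.zpowers (eps (ρ k)) = ⊤ ∧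
    ρ k ^ p * lon P ρ k = 1 ∧ ρ k ^ (p - q) ≠ 1 ∧ ρ e = lon P ρ e ^ f

end Vale.Agent.P258
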