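import Vale.Agent.P258.R2.H394.Class
import Vale.Agent.P258.R2.H394.Spec3

set_option linter.all false

/-!
The criterion for the homomorphisms with a given image in an abelian quotient.
-/

namespace Vale.Agent.P258

open Diagram in
theorem map_lonVal {G A : Type*} [Group G] [Group A] (eps : G →* A) (D : Diagram)
    (ρ : Fin D.n → G) (i : Fin D.n) : eps (D.lonVal ρ i) = D.lonVal (fun a => eps (ρ a)) i := by
  rw [← Diagram.lift_longitude, ← Diagram.lift_longitude]
  have : FreeGroup.lift (fun a => eps (ρ a)) = eps.comp (FreeGroup.lift ρ) := by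
    ext a
    simp
  rw [this]
  rfl

theorem isCol_map {G A : Type*} [Group G] [Group A] (eps : G →* A) (D : Diagram)
    (ρ : Fin D.n → G) (h : D.IsCol ρ) : D.IsCol (fun a => eps (ρ a)) := by
  intro a
  refine (D.lift_wirtinger (fun a => eps (ρ a)) a).1 ?_
  have : FreeGroup.lift (fun a => eps (ρ a)) = eps.comp (FreeGroup.lift ρ) := by
    ext a
    simp
  rw [this, MonoidHom.comp_apply, (D.lift_wirtinger ρ a).2 (h a), map_one]

/-- In an abelian quotient the images of all generators are powers of that of the meridian. -/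
theorem eps_mem {G A : Type} [Group G] [Finite G] [CommGroup A] (eps : G →* A) {N : ℕ}
    (hN : ∀ g : G, g ^ N = 1) (P : Diagram) (k' e' : Fin P.n) (f p : ℤ)
    (hab : ∀ χ : Fin P.n → A, IsHom P χ → χ e' = lon P χ e' ^ f →
      ∀ a, χ a ∈ Subgroup.zpowers (χ k'))
    (D J : Diagram) (hJ : J.IsKnot) (C : Set (Fin D.n)) (a b : Fin D.n → ℤ) (k e : Fin D.n)
    (j : Fin J.n) (s : ℤ) (hS : SameSystem D C k e P k' e')
    (ha : ∀ c ∈ C, (N : ℤ) ∣ a c - 1) (hb : ∀ c ∈ C, (N : ℤ) ∣ b c) (hs : (N : ℤ) ∣ s)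
    (σ : Fin D.n ⊕ Fin J.n → G)
    (hσ : ∀ r ∈ twistedRelators D J C a b k e j s f p, FreeGroup.lift σ r = 1) :
    ∀ x, eps (σ x) ∈ Subgroup.zpowers (eps (σ (Sum.inl k))) := by
  rw [sat_twisted_iff] at hσ
  obtain ⟨g1, g2, gc, g3, g4, g5⟩ := hσ
  have hC : ∀ c ∈ C, (σ ∘ Sum.inl) c = 1 := by
    intro c hc
    have h := gc c hc
    rw [zpow_of_dvd hN _ (hb c hc), mul_one, zpow_congr hN _ (n := 1) (ha c hc), zpow_one] at h
    exact h
  rw [zpow_of_dvd hN _ hs, mul_one] at g3
  obtain ⟨θ, ⟨t1, t2⟩, t3, t4⟩ := hS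
  -- the values on the companion
  have hJc : ∀ i, eps (σ (Sum.inr i)) = eps (σ (Sum.inr j)) := by
    intro i
    exact col_const_of_central (isCol_map eps J _ g2) (hJ j i)
      (Subgroup.mem_center_iff.2 fun x => mul_comm _ _)
  have hJl : eps (J.lonVal (σ ∘ Sum.inr) j) = 1 := by
    rw [map_lonVal]
    have : (fun i => eps ((σ ∘ Sum.inr) i)) = fun _ => eps (σ (Sum.inr j)) := funext hJc
    rw [this, Diagram.lonVal_const J hJ]
  let F : LinkGroup D C →* G := homOf D C (σ ∘ Sum.inl) g1 hC
  let ψ : LinkGroup P ∅ →* A := (eps.comp F).comp θ.symm.toMonoidHom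
  have hψ : ∀ (w : FreeGroup (Fin D.n)) (w' : FreeGroup (Fin P.n)),
      θ (elem D C w) = elem P ∅ w' → ψ (elem P ∅ w') = eps (FreeGroup.lift (σ ∘ Sum.inl) w) := by
    intro w w' hw
    rw [← hw]
    change eps (F (θ.symm (θ (elem D C w)))) = _
    rw [MulEquiv.symm_apply_apply]
    rfl
  have hk : colOf P ∅ ψ k' = eps (σ (Sum.inl k)) := by
    have := hψ _ _ t1
    rw [FreeGroup.lift_apply_of] at this
    exact this
  have he : colOf P ∅ ψ e' = eps (σ (Sum.inl e)) := by
    have := hψ _ _ t3
    rw [FreeGroup.lift_apply_of] at this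
    exact this
  have hl : lon P (colOf P ∅ ψ) e' = eps (σ (Sum.inr j)) := by
    unfold lon
    rw [lift_colOf, hψ _ _ t4, Diagram.lift_longitude]
    exact congrArg eps g3
  have hmem := hab (colOf P ∅ ψ)
    (fun i => (P.lift_wirtinger _ i).2 (isCol_colOf P ∅ ψ i)) (by
      rw [he, hl, g4, map_mul, hJl, mul_one, map_zpow])
  rw [hk] at hmem
  have hall : ∀ w : FreeGroup (Fin P.n),
      ψ (elem P ∅ w) ∈ Subgroup.zpowers (eps (σ (Sum.inl k))) := by
    intro w
    rw [← lift_colOf]
    induction w using FreeGroup.induction_on with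
    | C1 => rw [map_one]; exact Subgroup.one_mem _
    | of i => rw [FreeGroup.lift_apply_of]; exact hmem i
    | inv_of i _ => rw [map_inv, FreeGroup.lift_apply_of]; exact Subgroup.inv_mem _ (hmem i)
    | mul x y hx hy => rw [map_mul]; exact Subgroup.mul_mem _ hx hy
  have hall' : ∀ w : FreeGroup (Fin D.n),
      eps (FreeGroup.lift (σ ∘ Sum.inl) w) ∈ Subgroup.zpowers (eps (σ (Sum.inl k))) := by
    intro w
    obtain ⟨w', hw'⟩ : ∃ w', elem P ∅ w' = θ (elem D C w) := PresentedGroup.mk_surjective _ _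
    rw [← hψ w w' hw'.symm]
    exact hall w'
  have hin : ∀ i : Fin D.n, eps (σ (Sum.inl i)) ∈ Subgroup.zpowers (eps (σ (Sum.inl k))) := by
    intro i
    have := hall' (FreeGroup.of i)
    rw [FreeGroup.lift_apply_of] at this
    exact this
  intro x
  rcases x with i | i
  · exact hin i
  · rw [hJc i, ← g3, ← Diagram.lift_longitude]
    exact hall' _

/-- The general criterion. -/
theorem separatesClassSlopes_of_graded {G A : Type} [Group G] [Finite G] [CommGroup A]
    (eps : G →* A) {N : ℕ} (hN : ∀ g : G, g ^ N = 1) (P : Diagram) (k' e' : Fin P.n)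
    (f p₀ q₀ : ℤ) (hsep : SeparatesGraded G A eps P k' e' f p₀ q₀) :
    SeparatesClassSlopes N P k' e' f p₀ q₀ := by
  intro D J hJ C a b k e j s p q hS hCC hs hp hq
  obtain ⟨hab, hneg, ρ₀, h₀, hgen, hk, hne, he⟩ := hsep
  unfold lon at hk he
  rw [Diagram.lift_longitude] at hk he
  have ha : ∀ c ∈ C, (N : ℤ) ∣ a c - 1 := fun c hc => (hCC c hc).1
  have hb : ∀ c ∈ C, (N : ℤ) ∣ b c := fun c hc => (hCC c hc).2
  -- the slope `q` forces `μ ^ (p₀ - q₀) = 1`
  have key : ∀ σ : Fin D.n ⊕ Fin J.n → G, Subgroup.zpowers (eps (σ (Sum.inl k))) = ⊤ →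
      (∀ r ∈ twistedRelators D J C a b k e j s f q, FreeGroup.lift σ r = 1) →
      σ (Sum.inl k) ^ (p₀ - q₀) = 1 := by
    intro σ hg hσ
    rw [sat_twisted_iff] at hσ
    obtain ⟨g1, g2, gc, g3, g4, g5⟩ := hσ
    have hC : ∀ c ∈ C, (σ ∘ Sum.inl) c = 1 := by
      intro c hc
      have h := gc c hc
      rw [zpow_of_dvd hN _ (hb c hc), mul_one, zpow_congr hN _ (n := 1) (ha c hc), zpow_one] at h
      exact h
    obtain ⟨ρ', c1, c2, c3, c4, c5⟩ := hS.down (σ ∘ Sum.inl) g1 hC
    have c2' : ρ' k' = σ (Sum.inl k) := c2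
    have c4' : ρ' e' = σ (Sum.inl e) := c4
    rw [zpow_of_dvd hN _ hs, mul_one] at g3
    rw [zpow_congr hN _ hq] at g5
    have hJl : eps (J.lonVal (σ ∘ Sum.inr) j) = 1 := by
      rw [map_lonVal]
      have : (fun i => eps ((σ ∘ Sum.inr) i)) = fun _ => eps (σ (Sum.inr j)) := funext fun i =>
        col_const_of_central (isCol_map eps J _ g2) (hJ j i)
          (Subgroup.mem_center_iff.2 fun x => mul_comm _ _)
      rw [this, Diagram.lonVal_const J hJ]
    have h := hneg ρ' (fun i => (P.lift_wirtinger _ i).2 (c1 i)) ?_ ?_ ?_ ?_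
    · rw [c2'] at h; exact h
    · rw [c2']; exact hg
    · unfold lon
      rw [Diagram.lift_longitude, c5, g3, c4', g4, map_mul, hJl, mul_one, map_zpow]
    · unfold lon
      rw [Diagram.lift_longitude]
      intro h1
      rw [c5, g3] at h1 ⊢
      have hall : σ ∘ Sum.inr = fun _ => σ (Sum.inr j) := funext fun b =>
        col_const_of_central g2 (hJ j b) h1
      rw [c4', g4, hall, Diagram.lonVal_const J hJ, mul_one]
    · unfold lon
      rw [Diagram.lift_longitude, c3, c2']
      exact g5
  have pow : ∀ (x : G), x ^ (p₀ - q₀) = 1 → x ^ q₀ = x ^ p₀ := by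
    intro x h
    rw [zpow_sub, mul_inv_eq_one] at h
    exact h.symm
  obtain ⟨ρ, u1, u2, u3, u4, u5, u6⟩ := hS.up ρ₀ (fun i => (P.lift_wirtinger _ i).1 (h₀ i))
  -- the numbers of homomorphisms with image `A`
  constructor
  intro φ
  have count : ∀ p : ℤ, Nat.card {F : PresentedGroup (twistedRelators D J C a b k e j s f p) →* G //
      Function.Surjective (eps.comp F)} = Nat.card {σ : Fin D.n ⊕ Fin J.n → G //
        (∀ r ∈ twistedRelators D J C a b k e j s f p, FreeGroup.lift σ r = 1) ∧
        Subgroup.zpowers (eps (σ (Sum.inl k))) = ⊤} := by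
    intro p
    have e3 : ∀ F : PresentedGroup (twistedRelators D J C a b k e j s f p) →* G,
        ∀ r ∈ twistedRelators D J C a b k e j s f p,
          FreeGroup.lift (fun x => F (PresentedGroup.of x)) r = 1 := by
      intro F r hr
      have h3 : FreeGroup.lift (fun a => F (PresentedGroup.of a)) =
          F.comp (PresentedGroup.mk _) := by
        ext a
        simp [PresentedGroup.of]
      rw [h3, MonoidHom.comp_apply]
      have : PresentedGroup.mk _ r = 1 := PresentedGroup.one_of_mem hr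
      rw [this, map_one]
    have e4 : ∀ F : PresentedGroup (twistedRelators D J C a b k e j s f p) →* G,
        Function.Surjective (eps.comp F) ↔
          Subgroup.zpowers (eps (F (PresentedGroup.of (Sum.inl k)))) = ⊤ := by
      intro F
      have hm := eps_mem eps hN P k' e' f p hab D J hJ C a b k e j s hS ha hb hs
        (fun x => F (PresentedGroup.of x)) (e3 F)
      have hm2 : ∀ g, eps (F g) ∈ Subgroup.zpowers (eps (F (PresentedGroup.of (Sum.inl k)))) := by
        intro g
        obtain ⟨w, rfl⟩ := PresentedGroup.mk_surjective _ g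
        induction w using FreeGroup.induction_on with
        | C1 => rw [map_one, map_one, map_one]; exact Subgroup.one_mem _
        | of i => exact hm i
        | inv_of i _ => rw [map_inv, map_inv, map_inv]; exact Subgroup.inv_mem _ (hm i)
        | mul x y hx hy => rw [map_mul, map_mul, map_mul]; exact Subgroup.mul_mem _ hx hy
      constructor
      · intro h
        rw [eq_top_iff]
        intro y _
        obtain ⟨g, rfl⟩ := h y
        exact hm2 g
      · intro h y
        have hy : y ∈ Subgroup.zpowers (eps (F (PresentedGroup.of (Sum.inl k)))) := by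
          rw [h]; trivial
        obtain ⟨n, rfl⟩ := Subgroup.mem_zpowers_iff.1 hy
        exact ⟨PresentedGroup.of (Sum.inl k) ^ n, by simp⟩
    refine Nat.card_congr
      { toFun := fun F => ⟨fun x => F.1 (PresentedGroup.of x), e3 F.1, (e4 F.1).1 F.2⟩,
        invFun := fun σ => ⟨PresentedGroup.toGroup (f := σ.1) σ.2.1, (e4 _).2 ?_⟩,
        left_inv := ?_, right_inv := ?_ }
    · rw [PresentedGroup.toGroup.of]; exact σ.2.2
    · intro F
      apply Subtype.ext
      ext x
      simp
    · intro σ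
      apply Subtype.ext
      funext x
      simp
  have heq : Nat.card {F : PresentedGroup (twistedRelators D J C a b k e j s f q) →* G //
      Function.Surjective (eps.comp F)} = Nat.card
      {F : PresentedGroup (twistedRelators D J C a b k e j s f p) →* G //
      Function.Surjective (eps.comp F)} := by
    refine Nat.card_congr
      { toFun := fun F => ⟨F.1.comp φ.toMonoidHom, ?_⟩,
        invFun := fun F => ⟨F.1.comp φ.symm.toMonoidHom, ?_⟩,
        left_inv := ?_, right_inv := ?_ }
    · exact F.2.comp φ.surjective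
    · exact F.2.comp φ.symm.surjective
    · intro F
      apply Subtype.ext
      ext x
      simp
    · intro F
      apply Subtype.ext
      ext x
      simp
  rw [count, count] at heq
  let Sp : Set (Fin D.n ⊕ Fin J.n → G) := {σ |
    (∀ r ∈ twistedRelators D J C a b k e j s f p, FreeGroup.lift σ r = 1) ∧
      Subgroup.zpowers (eps (σ (Sum.inl k))) = ⊤}
  let Sq : Set (Fin D.n ⊕ Fin J.n → G) := {σ |
    (∀ r ∈ twistedRelators D J C a b k e j s f q, FreeGroup.lift σ r = 1) ∧
      Subgroup.zpowers (eps (σ (Sum.inl k))) = ⊤}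
  have hsub : Sq ⊂ Sp := by
    refine ⟨?_, ?_⟩
    · rintro σ ⟨hσ, hg⟩
      refine ⟨?_, hg⟩
      have hsq := key σ hg hσ
      rw [sat_twisted_iff] at hσ ⊢
      obtain ⟨g1, g2, gc, g3, g4, g5⟩ := hσ
      refine ⟨g1, g2, gc, g3, g4, ?_⟩
      rw [zpow_congr hN _ hq, pow _ hsq] at g5
      rw [zpow_congr hN _ hp]
      exact g5
    · intro hsub
      have hmem : Sum.elim ρ (fun _ => P.lonVal ρ₀ e') ∈ Sp := by
        refine ⟨?_, ?_⟩
        · rw [sat_twisted_iff]
          refine ⟨u1, Diagram.isCol_const J _, ?_, ?_, ?_, ?_⟩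
          · intro c hc
            change ρ c ^ a c * D.lonVal ρ c ^ b c = 1
            rw [zpow_of_dvd hN _ (hb c hc), mul_one, u2 c hc, one_zpow]
          · change D.lonVal ρ e * ρ e ^ s = P.lonVal ρ₀ e'
            rw [zpow_of_dvd hN _ hs, mul_one, u6]
          · change ρ e = (P.lonVal ρ₀ e') ^ f * J.lonVal (fun _ => P.lonVal ρ₀ e') j
            rw [Diagram.lonVal_const J hJ, mul_one, u5, he]
          · change ρ k ^ p * D.lonVal ρ k = 1
            rw [zpow_congr hN _ hp, u3, u4]
            exact hk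
        · change Subgroup.zpowers (eps (ρ k)) = ⊤
          rw [u3]; exact hgen
      have h := hsub hmem
      have h1 := key _ h.2 h.1
      change ρ k ^ (p₀ - q₀) = 1 at h1
      rw [u3] at h1
      exact hne h1
  have hlt : Nat.card Sq < Nat.card Sp := by
    rw [Nat.card_coe_set_eq, Nat.card_coe_set_eq]
    exact Set.ncard_lt_ncard hsub (Set.toFinite _)
  exact absurd heq hlt.ne

end Vale.Agent.P258
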