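import Vale.Agent.P258.R2.H394.Spec
import Vale.Agent.P258.H78.General

set_option linter.all false

/-!
The general criterion with the slopes `2` and `-2` exchanged.
-/

namespace Vale.Agent.P258

/-- The general criterion, mirror form. -/
theorem generalM {G : Type} [Group G] [Finite G] {N : ℕ} (hN : ∀ g : G, g ^ N = 1)
    (P : Diagram) (k' e' : Fin P.n)
    (hneg : ∀ ρ : Fin P.n → G, P.IsCol ρ → (P.lonVal ρ e' = 1 → ρ e' = 1) →
      ρ k' * ρ k' * P.lonVal ρ k' = 1 → ρ k' * ρ k' = 1)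
    (ρ₀ : Fin P.n → G) (h₀ : P.IsCol ρ₀) (hk : P.lonVal ρ₀ k' = ρ₀ k' * ρ₀ k')
    (hne : ρ₀ k' * ρ₀ k' ≠ 1) (f : ℤ) (he : ρ₀ e' = P.lonVal ρ₀ e' ^ f)
    (D J : Diagram) (hJ : J.IsKnot) (C : Set (Fin D.n)) (a b : Fin D.n → ℤ)
    (k e : Fin D.n) (j : Fin J.n) (s p q : ℤ) (hS : SameSystem D C k e P k' e')
    (ha : ∀ c ∈ C, (N : ℤ) ∣ a c - 1) (hb : ∀ c ∈ C, (N : ℤ) ∣ b c) (hs : (N : ℤ) ∣ s)
    (hp : (N : ℤ) ∣ p - 2) (hq : (N : ℤ) ∣ q + 2) :
    IsEmpty (PresentedGroup (twistedRelators D J C a b k e j s f q) ≃*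
      PresentedGroup (twistedRelators D J C a b k e j s f p)) := by
  -- the slope `p` forces `μ ^ 2 = 1`
  have key : ∀ σ : Fin D.n ⊕ Fin J.n → G,
      (∀ r ∈ twistedRelators D J C a b k e j s f p, FreeGroup.lift σ r = 1) →
      σ (Sum.inl k) * σ (Sum.inl k) = 1 := by
    intro σ hσ
    rw [sat_twisted_iff] at hσ
    obtain ⟨g1, g2, gc, g3, g4, g5⟩ := hσ
    have hC : ∀ c ∈ C, (σ ∘ Sum.inl) c = 1 := by
      intro c hc
      have h := gc c hc
      rw [zpow_of_dvd hN _ (hb c hc), mul_one, zpow_congr hN _ (n := 1) (ha c hc), zpow_one] at h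
      exact h
    obtain ⟨ρ', c1, c2, c3, c4, c5⟩ := hS.down (σ ∘ Sum.inl) g1 hC
    have c2' : ρ' k' = σ (Sum.inl k) := c2
    have c4' : ρ' e' = σ (Sum.inl e) := c4
    rw [zpow_of_dvd hN _ hs, mul_one] at g3
    rw [zpow_congr hN _ (n := 2) hp] at g5
    have h := hneg ρ' c1 ?_ ?_
    · rw [c2'] at h; exact h
    · intro h1
      rw [c5, g3] at h1
      have hall : ∀ b, (σ ∘ Sum.inr) b = 1 := fun b =>
        Diagram.IsCol.eq_one J g2 (hJ j b) h1
      rw [c4', g4, Diagram.lonVal_of_one J hall, h1]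
      simp
    · rw [c3, c2', ← g5, zpow_two]
  obtain ⟨ρ, u1, u2, u3, u4, u5, u6⟩ := hS.up ρ₀ h₀
  refine not_iso_of_ssubset (G := G) _ _ ?_
    (Sum.elim ρ (fun _ => P.lonVal ρ₀ e')) ?_ ?_
  · intro σ hσ
    have hsq := key σ hσ
    rw [sat_twisted_iff] at hσ ⊢
    obtain ⟨g1, g2, gc, g3, g4, g5⟩ := hσ
    refine ⟨g1, g2, gc, g3, g4, ?_⟩
    rw [zpow_congr hN _ (n := 2) hp] at g5
    rw [zpow_congr hN _ (n := -2) (by simpa using hq)]
    have e1 : σ (Sum.inl k) ^ (2 : ℤ) = 1 := by rw [zpow_two, hsq]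
    have e2 : σ (Sum.inl k) ^ (-2 : ℤ) = 1 := by rw [zpow_neg, e1, inv_one]
    rw [e2]
    rw [e1] at g5
    exact g5
  · rw [sat_twisted_iff]
    refine ⟨u1, Diagram.isCol_const J _, ?_, ?_, ?_, ?_⟩
    · intro c hc
      change ρ c ^ a c * D.lonVal ρ c ^ b c = 1
      rw [zpow_of_dvd hN _ (hb c hc), mul_one, u2 c hc, one_zpow]
    · change D.lonVal ρ e * ρ e ^ s = P.lonVal ρ₀ e'
      rw [zpow_of_dvd hN _ hs, mul_one, u6]
    · change ρ e = (P.lonVal ρ₀ e') ^ f * J.lonVal (fun _ => P.lonVal ρ₀ e') j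
      rw [Diagram.lonVal_const J hJ, mul_one, u5, he]
    · change ρ k ^ q * D.lonVal ρ k = 1
      rw [zpow_congr hN _ (n := -2) (by simpa using hq), u3, u4, hk, zpow_neg, zpow_two,
        inv_mul_cancel]
  · intro h
    have h1 := key _ h
    change ρ k * ρ k = 1 at h1
    rw [u3] at h1
    exact hne h1

/-- The mirror condition excludes the slopes `2` and `-2` for all companions and all congruent
patterns. -/
theorem separatesClass_of_mirror {G : Type} [Group G] [Finite G] {N : ℕ}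
    (hN : ∀ g : G, g ^ N = 1) (P : Diagram) (k' e' : Fin P.n) (f : ℤ)
    (hsep : SeparatesMirror G P k' e' f) : SeparatesClass N P k' e' f := by
  intro D J hJ C a b k e j s p q hS hC hs hp hq
  obtain ⟨hneg, ρ₀, h₀, hk, hne, he⟩ := hsep
  unfold lon at hk he
  rw [Diagram.lift_longitude] at hk he
  have h := generalM hN P k' e' ?_ ρ₀ (fun i => (P.lift_wirtinger _ i).1 (h₀ i))
    (by rw [← pow_two]; exact hk) (by rw [← pow_two]; exact hne) f he
    D J hJ C a b k e j s p q hS (fun c hc => (hC c hc).1) (fun c hc => (hC c hc).2) hs hp hq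
  · exact ⟨fun φ => h.false φ.symm⟩
  · intro ρ h1 h2 h3
    rw [← pow_two]
    refine hneg ρ (fun i => (P.lift_wirtinger _ i).2 (h1 i)) ?_ ?_
    · unfold lon; rw [Diagram.lift_longitude]; exact h2
    · unfold lon; rw [Diagram.lift_longitude, pow_two]; exact h3

/-- The condition `Separates` excludes the slopes `2` and `-2` for all companions and all congruent
patterns (clause (2) of `FoxClasses`). -/
theorem separatesClass_of_separates {G : Type} [Group G] [Finite G] {N : ℕ}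
    (hN : ∀ g : G, g ^ N = 1) (P : Diagram) (k' e' : Fin P.n) (f : ℤ)
    (hsep : Separates G P k' e' f) : SeparatesClass N P k' e' f := by
  intro D J hJ C a b k e j s p q hS hC hs hp hq
  obtain ⟨hneg, ρ₀, h₀, hk, hne, he⟩ := hsep
  unfold lon at hk he
  rw [Diagram.lift_longitude] at hk he
  refine general hN P k' e' ?_ ρ₀ (fun i => (P.lift_wirtinger _ i).1 (h₀ i))
    (by rw [← pow_two]; exact hk) (by rw [← pow_two]; exact hne) f he
    D J hJ C a b k e j s p q hS (fun c hc => (hC c hc).1) (fun c hc => (hC c hc).2) hs hp hq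
  intro ρ h1 h2 h3
  rw [← pow_two]
  refine hneg ρ (fun i => (P.lift_wirtinger _ i).2 (h1 i)) ?_ ?_
  · unfold lon; rw [Diagram.lift_longitude]; exact h2
  · unfold lon; rw [Diagram.lift_longitude, ← h3, pow_two]

theorem separates_mk {G : Type} [Group G] (P : Diagram) (k e : Fin P.n) (f : ℤ)
    (hneg : ∀ ρ : Fin P.n → G, P.IsCol ρ → (P.lonVal ρ e = 1 → ρ e = 1) →
      ρ k * ρ k = P.lonVal ρ k → ρ k * ρ k = 1)
    (ρ₀ : Fin P.n → G) (h₀ : P.IsCol ρ₀) (hk : ρ₀ k * ρ₀ k * P.lonVal ρ₀ k = 1)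
    (hne : ρ₀ k * ρ₀ k ≠ 1) (he : ρ₀ e = P.lonVal ρ₀ e ^ f) : Separates G P k e f := by
  refine ⟨fun ρ h1 h2 h3 => ?_, ρ₀, fun i => (P.lift_wirtinger _ i).2 (h₀ i), ?_, ?_, ?_⟩
  · unfold lon at h2 h3
    rw [Diagram.lift_longitude] at h2 h3
    rw [pow_two] at h3 ⊢
    exact hneg ρ (fun i => (P.lift_wirtinger _ i).1 (h1 i)) h2 h3.symm
  · unfold lon; rw [Diagram.lift_longitude, pow_two]; exact hk
  · rw [pow_two]; exact hne
  · unfold lon; rw [Diagram.lift_longitude]; exact he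

theorem separatesMirror_mk {G : Type} [Group G] (P : Diagram) (k e : Fin P.n) (f : ℤ)
    (hneg : ∀ ρ : Fin P.n → G, P.IsCol ρ → (P.lonVal ρ e = 1 → ρ e = 1) →
      ρ k * ρ k * P.lonVal ρ k = 1 → ρ k * ρ k = 1)
    (ρ₀ : Fin P.n → G) (h₀ : P.IsCol ρ₀) (hk : P.lonVal ρ₀ k = ρ₀ k * ρ₀ k)
    (hne : ρ₀ k * ρ₀ k ≠ 1) (he : ρ₀ e = P.lonVal ρ₀ e ^ f) : SeparatesMirror G P k e f := by
  refine ⟨fun ρ h1 h2 h3 => ?_, ρ₀, fun i => (P.lift_wirtinger _ i).2 (h₀ i), ?_, ?_, ?_⟩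
  · unfold lon at h2 h3
    rw [Diagram.lift_longitude] at h2 h3
    rw [pow_two] at h3 ⊢
    exact hneg ρ (fun i => (P.lift_wirtinger _ i).1 (h1 i)) h2 h3
  · unfold lon; rw [Diagram.lift_longitude, pow_two]; exact hk
  · rw [pow_two]; exact hne
  · unfold lon; rw [Diagram.lift_longitude]; exact he

theorem SameSystem.refl (P : Diagram) (k e : Fin P.n) : SameSystem P ∅ k e P k e :=
  ⟨MulEquiv.refl _, ⟨rfl, rfl⟩, ⟨rfl, rfl⟩⟩

/-- The satellite itself is a member of the class. -/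
theorem satellite_of_class {N : ℤ} {P : Diagram} {k e : Fin P.n} {f : ℤ}
    (h : SeparatesClass N P k e f) (J : Diagram) (hJ : J.IsKnot) (j : Fin J.n) :
    IsEmpty (PresentedGroup (satelliteRelators P J k e j f 2) ≃*
      PresentedGroup (satelliteRelators P J k e j f (-2))) := by
  have e1 : ∀ p : ℤ, twistedRelators P J ∅ 1 0 k e j 0 f p = satelliteRelators P J k e j f p := by
    intro p
    unfold twistedRelators satelliteRelators
    simp
  have h1 := h P J hJ ∅ 1 0 k e j 0 2 (-2) (SameSystem.refl P k e) (fun c hc => hc.elim)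
    (dvd_zero _) (by simp) (by simp)
  rw [e1, e1] at h1
  exact h1

end Vale.Agent.P258
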