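import Vale.Agent.P258.R2.H394.Split
import Vale.Agent.P258.R2.H394.Four.Main

set_option linter.all false

/-!
The second pattern: the groups `SL(2, 8)` and `SL(2, 4)`.
-/

namespace Vale.Agent.P258

theorem zpow_mod_nine {H : Type*} [Group H] (x : H) (hx : x ^ (9 : ℕ) = 1) (f : ℤ)
    (hf : f % 9 = 2) : x ^ f = x * x := by
  obtain ⟨q, hq⟩ : ∃ q, f = 9 * q + 2 := ⟨f / 9, by omega⟩
  have h9 : x ^ (9 : ℤ) = 1 := by exact_mod_cast hx
  rw [hq, zpow_add, zpow_mul, h9, one_zpow, one_mul, zpow_two]

theorem zpow_mod_five {H : Type*} [Group H] (x : H) (hx : x ^ (5 : ℕ) = 1) (f : ℤ)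
    (hf : f % 5 = 1) : x ^ f = x := by
  obtain ⟨q, hq⟩ : ∃ q, f = 5 * q + 1 := ⟨f / 5, by omega⟩
  have h5 : x ^ (5 : ℤ) = 1 := by exact_mod_cast hx
  rw [hq, zpow_add, zpow_mul, h5, one_zpow, one_mul, zpow_one]

theorem separates_nine (f : ℤ) (hf : f % 9 = 2) :
    Separates Second.G patternB patternBK patternBE f := by
  refine separates_mk patternB patternBK patternBE f (fun ρ h1 h2 h3 => Second.keyR ρ h1 h2 h3)
    Second.col9 Second.col9_isCol Second.col9_K Second.col9_sq ?_
  rw [zpow_mod_nine _ Second.col9_E f hf]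
  exact Second.col9_31

theorem separates_five (f : ℤ) (hf : f % 5 = 1) :
    SeparatesMirror Four.G patternB patternBK patternBE f := by
  refine separatesMirror_mk patternB patternBK patternBE f
    (fun ρ h1 h2 h3 => Four.keyR ρ h1 h2 h3)
    Four.baseCol Four.baseCol_isCol Four.baseCol_K Four.baseCol_sq ?_
  rw [zpow_mod_five _ Four.baseCol_E5 f hf]
  exact Four.baseCol_31

theorem class_nine (f : ℤ) (hf : f % 9 = 2) : SeparatesClass 126 patternB patternBK patternBE f :=
  separatesClass_of_separates (N := 126) Second.G_pow patternB patternBK patternBE f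
    (separates_nine f hf)

theorem class_five (f : ℤ) (hf : f % 5 = 1) : SeparatesClass 30 patternB patternBK patternBE f :=
  separatesClass_of_mirror (N := 30) Four.G_pow patternB patternBK patternBE f
    (separates_five f hf)

theorem class_split (f : ℤ) : SeparatesClass 126 patternS patternSK patternSO f :=
  separatesClass_of_separates (N := 126) Second.G_pow patternS patternSK patternSO f
    (separates_split f)

end Vale.Agent.P258
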