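import Vale.Agent.P258.R2.H394.Spec

/-!
The separation condition for two integral slopes, with central longitudes excluded.
-/

namespace Vale.Agent.P258

/-- The condition on the homomorphisms `ρ` of the group of the link `P` to `G` which separates the
slopes `p` and `q` for the `f`-twisted satellites: if `ρ` kills the curve of slope `q` on `k`, and
takes the longitude of `e` to a central element only if it takes the meridian of `e` to its power of
exponent `f`, then it kills the power of exponent `p - q` of the meridian of `k`; and some `ρ` kills
the curve of slope `p`, does not kill this power, and takes the meridian of `e` to the power of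
exponent `f` of the longitude of `e`. -/
def SeparatesSlopes (G : Type) [Group G] (P : Diagram) (k e : Fin P.n) (f p q : ℤ) : Prop :=
  (∀ ρ : Fin P.n → G, IsHom P ρ →
    (lon P ρ e ∈ Subgroup.center G → ρ e = lon P ρ e ^ f) →
    ρ k ^ q * lon P ρ k = 1 → ρ k ^ (p - q) = 1) ∧
  ∃ ρ : Fin P.n → G, IsHom P ρ ∧ ρ k ^ p * lon P ρ k = 1 ∧ ρ k ^ (p - q) ≠ 1 ∧
    ρ e = lon P ρ e ^ f

end Vale.Agent.P258
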