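import Vale.Agent.P258.R2.H394.Graded
import Vale.Agent.P258.R2.H747.GenA

set_option linter.all false

/-!
The criterion with signs for the first pattern.
-/

namespace Vale.Agent.P258

theorem zpowers_units {x : ℤˣ} : Subgroup.zpowers x = ⊤ ↔ x ≠ 1 := by
  constructor
  · rintro h rfl
    have : (-1 : ℤˣ) ∈ Subgroup.zpowers (1 : ℤˣ) := by rw [h]; trivial
    rw [Subgroup.zpowers_one_eq_bot, Subgroup.mem_bot] at this
    exact absurd this (by decide)
  · intro h
    rcases Int.units_eq_one_or x with h1 | h1
    · exact absurd h1 h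
    · subst h1
      rw [eq_top_iff]
      intro y _
      rcases Int.units_eq_one_or y with h2 | h2
      · rw [h2]; exact Subgroup.one_mem _
      · rw [h2]; exact Subgroup.mem_zpowers _

/-- The first pattern is a link of two components with linking number zero. -/
theorem pattern_abelian {A : Type} [CommGroup A] (f : ℤ) (χ : Fin pattern.n → A)
    (h : IsHom pattern χ) (he : χ patternE = lon pattern χ patternE ^ f) (a : Fin pattern.n) :
    χ a ∈ Subgroup.zpowers (χ patternK) := by
  have hc : pattern.IsCol χ := fun i => (pattern.lift_wirtinger _ i).1 (h i)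
  have hcen : ∀ x : A, x ∈ Subgroup.center A := fun x =>
    Subgroup.mem_center_iff.2 fun y => mul_comm _ _
  have hK : ∀ b : Fin 21, b.val < 19 → χ b = χ patternK := fun b hb =>
    col_const_of_central hc ((comp_K b).2 hb) (hcen _)
  have hE : ∀ b : Fin 21, 19 ≤ b.val → χ b = χ patternE := fun b hb =>
    col_const_of_central hc ((comp_E b).2 hb) (hcen _)
  have h6 : χ (6 : Fin 21) = χ patternK := hK 6 (by decide)
  have h10 : χ (10 : Fin 21) = χ patternK := hK 10 (by decide)
  have hl : lon pattern χ patternE = 1 := by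
    unfold lon
    rw [Diagram.lift_longitude]
    have := Second.H747A.lonValA_E χ
    rw [this]
    have e1 : χ (6 : Fin 21) = χ (10 : Fin 21) := h6.trans h10.symm
    exact (congrArg (fun x => x⁻¹ * χ (10 : Fin 21)) e1).trans (inv_mul_cancel _)
  rw [hl, one_zpow] at he
  rcases lt_or_ge a.val 19 with ha | ha
  · have : χ a = χ patternK := hK a ha
    rw [this]; exact Subgroup.mem_zpowers _
  · have : χ a = χ patternE := hE a ha
    rw [this, he]; exact Subgroup.one_mem _

theorem graded_of_units {G : Type} [Group G] (eps : G →* ℤˣ) (f p q : ℤ)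
    (h1 : ∀ ρ : Fin pattern.n → G, IsHom pattern ρ → eps (ρ patternK) ≠ 1 →
      eps (ρ patternE) = eps (lon pattern ρ patternE) ^ f →
      (lon pattern ρ patternE ∈ Subgroup.center G →
        ρ patternE = lon pattern ρ patternE ^ f) →
      ρ patternK ^ q * lon pattern ρ patternK = 1 → ρ patternK ^ (p - q) = 1)
    (h2 : ∃ ρ : Fin pattern.n → G, IsHom pattern ρ ∧ eps (ρ patternK) ≠ 1 ∧
      ρ patternK ^ p * lon pattern ρ patternK = 1 ∧ ρ patternK ^ (p - q) ≠ 1 ∧
      ρ patternE = lon pattern ρ patternE ^ f) :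
    SeparatesGraded G ℤˣ eps pattern patternK patternE f p q := by
  refine ⟨fun χ h he a => pattern_abelian f χ h he a, fun ρ h3 h4 => h1 ρ h3
    (zpowers_units.1 h4), ?_⟩
  obtain ⟨ρ, e1, e2, e3⟩ := h2
  exact ⟨ρ, e1, zpowers_units.2 e2, e3⟩

end Vale.Agent.P258
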